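import Vale.Agent.P196.CT6
import Vale.Agent.P196.Simple
import Vale.Agent.P196.Amen3
import Vale.Agent.P196.KerMain

open Vale.Agent.P196 in
theorem Vale.Agent.Results.P196.FPSimpleAmenable.result :
    ∃ (G : Type) (_ : Group G), Group.IsFinitelyPresented G ∧ Infinite G ∧ IsSimpleGroup G ∧
      ∀ (K : Finset G) (ε : ℝ), 0 < ε → ∃ D : Finset G, D.Nonempty ∧ ∀ g ∈ K,
        ((symmDiff ((fun x => g * x) '' (D : Set G)) (D : Set G)).ncard : ℝ) < ε * D.card := by
  classical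
  refine ⟨GG, inferInstance, gg_fp kStmt, sStmt.2, sStmt.1, fun K ε h => ?_⟩
  obtain ⟨D, h1, h2⟩ := aStmt K ε h
  refine ⟨D, h1, fun g hg => ?_⟩
  have := h2 g hg
  rwa [← Set.ncard_coe_finset, Finset.coe_symmDiff, Finset.coe_image] at this
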